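import Vale.Agent.P192.Sel
import Vale.Agent.P192.PartII

namespace Vale.Agent.Results.P192.Burnside

open Vale.Agent.P192

theorem result : ∃ (n : ℕ) (rels : Set (FreeGroup (Fin n))), rels.Finite ∧
    Infinite (PresentedGroup rels) ∧ ∀ g : PresentedGroup rels, IsOfFinOrder g := by
  obtain ⟨R, _, P, L, hR, hε⟩ := exists_alg (sys 2) {x | InR 2 x} (finite_InR 2)
    (fun _ _ h => Step1.inR h) (fun _ _ _ _ h => Step2.inR h) hcap (fun L0 => by
      obtain ⟨L, hL, w, hw⟩ := long_nz L0 0
      exact ⟨L, by omega, w, fun i hi => inR_of_nz hw (Nat.zero_le _) hi, hw⟩)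
  have : Finite {x | InR 2 x} := finite_InR 2
  obtain ⟨G, _, h1, h2, h3⟩ := partII P L hε
  obtain ⟨n, s, hs, ⟨e⟩⟩ := Group.IsFinitelyPresented.exists_mulEquiv_presentedGroup (G := G)
  refine ⟨n, s, hs, Infinite.of_injective e e.injective, fun g => ?_⟩
  have := e.toMonoidHom.isOfFinOrder (h3 (e.symm g))
  simpa using this

end Vale.Agent.Results.P192.Burnside
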